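import Crest.Agent.Helper54.S0010.PField

/-!
# S0010 (row 9), work package WP-LL, part 2: the pure-field Line Lemma

`line_lemma_field`: see the statement.  `PA p x` is `L^p(x)`, `PA2 p x y` is `L^p(x, y)`.
-/

set_option autoImplicit false
set_option linter.unusedSectionVars false
set_option linter.unnecessarySimpa false

namespace Crest.Agent.Helper54.S0010

open Finset

variable {L : Type*} [Field L] (p : ℕ) [hp : Fact p.Prime] [CharP L p]

/-- `L^p(x)`. -/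
def PA (x : L) : Subfield L := adjoinP p (pPow p) (pow_mem_pPow p) x

theorem pPow_le_PA (x : L) : pPow p ≤ PA p x := le_adjoinP _

theorem pow_mem_PA (x a : L) : a ^ p ∈ PA p x := pPow_le_PA p x (pow_mem_pPow p a)

theorem self_mem_PA (x : L) : x ∈ PA p x := self_mem_adjoinP _

/-- `L^p(x, y)`. -/
def PA2 (x y : L) : Subfield L := adjoinP p (PA p x) (pow_mem_PA p x) y

theorem PA_le_PA2 (x y : L) : PA p x ≤ PA2 p x y := le_adjoinP _

theorem snd_mem_PA2 (x y : L) : y ∈ PA2 p x y := self_mem_adjoinP _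

theorem PA_le_PA2' (x y : L) : PA p y ≤ PA2 p x y :=
  adjoinP_le _ ((pPow_le_PA p x).trans (PA_le_PA2 p x y)) (snd_mem_PA2 p x y)

theorem PA_le_of_mem {x : L} {S : Subfield L} (hS : pPow p ≤ S) (hx : x ∈ S) : PA p x ≤ S :=
  adjoinP_le _ hS hx

variable {p}

/-- The elementary shape of membership in `L^p(x)`. -/
theorem mem_PA_iff {x w : L} :
    w ∈ PA p x ↔ ∃ a : Fin p → L, w = ∑ i, (a i) ^ p * x ^ (i : ℕ) := by
  constructor
  · rintro ⟨b, hb, rfl⟩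
    choose a ha using fun j => (mem_pPow p).1 (hb j)
    refine ⟨fun i => a i, ?_⟩
    rw [Fin.sum_univ_eq_sum_range (fun j => (a j) ^ p * x ^ j) p]
    exact sum_congr rfl (fun j _ => by rw [ha j])
  · rintro ⟨a, rfl⟩
    exact (PA p x).sum_mem
      (fun i _ => (PA p x).mul_mem (pow_mem_PA p x _) ((PA p x).pow_mem (self_mem_PA p x) _))

section deriv2

variable (D₁ D₂ : Derivation ℤ L L)

include hp in
/-- Jacobian relation: `v ∈ L^p(u)` implies `D₁ u * D₂ v = D₂ u * D₁ v`. -/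
theorem jacobian {u v : L} (hv : v ∈ PA p u) : D₁ u * D₂ v = D₂ u * D₁ v := by
  obtain ⟨b, hb, rfl⟩ := hv
  obtain ⟨q, hq⟩ : ∃ q, p = q + 1 := ⟨p - 1, (Nat.succ_pred_eq_of_pos hp.out.pos).symm⟩
  have hb1 : ∀ j, D₁ (b j) = 0 := fun j => D_of_mem_pPow D₁ (hb j)
  have hb2 : ∀ j, D₂ (b j) = 0 := fun j => D_of_mem_pPow D₂ (hb j)
  rw [hq, D_sum D₁ u b hb1 q, D_sum D₂ u b hb2 q]
  ring

variable {D₁ D₂} {x y : L}

include hp in
theorem D₂_eq_zero_of_mem_PA (h21 : D₂ x = 0) {w : L} (hw : w ∈ PA p x) : D₂ w = 0 :=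
  D_eq_zero_of_mem_adjoinP D₂ _ _ (fun _ he => D_of_mem_pPow D₂ he) h21 hw

include hp in
theorem D₁_mem_PA (h11 : D₁ x = 1) {w : L} (hw : w ∈ PA p x) : D₁ w ∈ PA p x :=
  D_mem_adjoinP D₁ _ _ (fun _ he => D_of_mem_pPow D₁ he) (by rw [h11]; exact (PA p x).one_mem) hw

include hp in
theorem mem_pPow_of_D₁_eq_zero (h11 : D₁ x = 1) {w : L} (hw : w ∈ PA p x) (h0 : D₁ w = 0) :
    w ∈ pPow p :=
  mem_of_D_eq_zero D₁ _ _ (fun _ he => D_of_mem_pPow D₁ he) (by rw [h11]; exact one_ne_zero) hw h0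

include hp in
/-- `L^p(x) ∩ L^p(y) = L^p` when `D₁ x = 1`, `D₁ y = 0`. -/
theorem mem_pPow_of_mem_of_mem (h11 : D₁ x = 1) (h12 : D₁ y = 0) {w : L} (hw : w ∈ PA p x)
    (hw' : w ∈ PA p y) : w ∈ pPow p :=
  mem_pPow_of_D₁_eq_zero h11 hw (D₂_eq_zero_of_mem_PA (D₂ := D₁) h12 hw')

include hp in
/-- Elements of `L^p(x,y)` killed by `D₁` and `D₂` are `p`-th powers. -/
theorem mem_pPow_of_mem_PA2 (h11 : D₁ x = 1) (h21 : D₂ x = 0) (h22 : D₂ y = 1) {w : L}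
    (hw : w ∈ PA2 p x y) (h1 : D₁ w = 0) (h2 : D₂ w = 0) : w ∈ pPow p := by
  have hx : w ∈ PA p x :=
    mem_of_D_eq_zero D₂ _ _ (fun _ he => D₂_eq_zero_of_mem_PA h21 he)
      (by rw [h22]; exact one_ne_zero) hw h2
  exact mem_pPow_of_D₁_eq_zero h11 hx h1

include hp in
/-- `D₁` and `D₂` commute on `L^p(x,y)`. -/
theorem comm_of_mem_PA2 (h11 : D₁ x = 1) (h12 : D₁ y = 0) (h21 : D₂ x = 0) (h22 : D₂ y = 1)
    {w : L} (hw : w ∈ PA2 p x y) : D₁ (D₂ w) = D₂ (D₁ w) := by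
  have hC : ∀ a, ⁅D₁, D₂⁆ a = D₁ (D₂ a) - D₂ (D₁ a) := fun a => Derivation.commutator_apply a
  have h0 : ⁅D₁, D₂⁆ w = 0 := by
    refine D_eq_zero_of_mem_adjoinP ⁅D₁, D₂⁆ _ _ (fun e he => ?_) ?_ hw
    · refine D_eq_zero_of_mem_adjoinP ⁅D₁, D₂⁆ _ _
        (fun _ he => D_of_mem_pPow ⁅D₁, D₂⁆ he) ?_ he
      rw [hC, h21, h11, map_zero, Derivation.map_one_eq_zero, sub_zero]
    · rw [hC, h22, h12, map_zero, Derivation.map_one_eq_zero, sub_zero]
  rw [hC] at h0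
  exact sub_eq_zero.1 h0

end deriv2

section main

variable {D₁ D₂ : Derivation ℤ L L} {x y : L}

include hp in
/-- **Line Lemma, pure-field form.** -/
theorem line_lemma_field
    (h11 : D₁ x = 1) (h12 : D₁ y = 0) (h21 : D₂ x = 0) (h22 : D₂ y = 1)
    {ι : Type*} [Infinite ι] (o : ι) (φ γ : ι → L) (h : L) (hh0 : h ≠ 0)
    (hφo : φ o = x) (hγo : γ o = y)
    (hφE : ∀ c, φ c ∈ PA p x) (hγE : ∀ c, γ c ∈ PA p y)
    (hφn : ∀ c, φ c ∉ pPow p) (hγn : ∀ c, γ c ∉ pPow p)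
    (hh : ∀ c, h / φ c ∈ PA p (γ c / φ c))
    (hφinj : ∀ c c', φ c / φ c' ∈ pPow p → c = c')
    (hγinj : ∀ c c', γ c / γ c' ∈ pPow p → c = c') :
    ∃ m : ℕ, 0 < m ∧ m < p ∧ ∃ P Q : L, P ∈ PA p x ∧ P ∉ pPow p ∧ Q ∈ PA p y ∧ Q ∉ pPow p ∧
      ∃ lam : ι → L, (∀ c, lam c ∈ pPow p) ∧ lam o = 0 ∧ Function.Injective lam ∧
        (∀ c, P + lam c ≠ 0 ∧ φ c / (P + lam c) ^ m ∈ pPow p) ∧
        (∀ c, Q - lam c ≠ 0 ∧ γ c / (Q - lam c) ^ m ∈ pPow p) ∧
        P + Q ≠ 0 ∧ h / (P + Q) ^ m ∈ pPow p := by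
  classical
  -- basic non-vanishing
  have hφ0 : ∀ c, φ c ≠ 0 := fun c hc => hφn c (by rw [hc]; exact (pPow p).zero_mem)
  have hγ0 : ∀ c, γ c ≠ 0 := fun c hc => hγn c (by rw [hc]; exact (pPow p).zero_mem)
  have hD1φ : ∀ c, D₁ (φ c) ≠ 0 := fun c hc => hφn c (mem_pPow_of_D₁_eq_zero h11 (hφE c) hc)
  have hD2γ : ∀ c, D₂ (γ c) ≠ 0 := fun c hc =>
    hγn c (mem_pPow_of_D₁_eq_zero (D₁ := D₂) h22 (hγE c) hc)
  have hD2φ : ∀ c, D₂ (φ c) = 0 := fun c => D₂_eq_zero_of_mem_PA h21 (hφE c)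
  have hD1γ : ∀ c, D₁ (γ c) = 0 := fun c => D₂_eq_zero_of_mem_PA (D₂ := D₁) h12 (hγE c)
  -- the functions F, G and the constants H₁, H₂ (opaque)
  obtain ⟨F, hF⟩ : ∃ F : ι → L, ∀ c, F c = φ c / D₁ (φ c) := ⟨_, fun _ => rfl⟩
  obtain ⟨G, hG⟩ : ∃ G : ι → L, ∀ c, G c = γ c / D₂ (γ c) := ⟨_, fun _ => rfl⟩
  obtain ⟨H₁, hH₁def⟩ : ∃ H₁ : L, H₁ = D₁ h / h := ⟨_, rfl⟩
  obtain ⟨H₂, hH₂def⟩ : ∃ H₂ : L, H₂ = D₂ h / h := ⟨_, rfl⟩
  have hFE : ∀ c, F c ∈ PA p x := fun c => by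
    rw [hF]; exact (PA p x).div_mem (hφE c) (D₁_mem_PA h11 (hφE c))
  have hGE : ∀ c, G c ∈ PA p y := fun c => by
    rw [hG]; exact (PA p y).div_mem (hγE c) (D₁_mem_PA (D₁ := D₂) h22 (hγE c))
  have hF0 : ∀ c, F c ≠ 0 := fun c => by rw [hF]; exact div_ne_zero (hφ0 c) (hD1φ c)
  have hG0 : ∀ c, G c ≠ 0 := fun c => by rw [hG]; exact div_ne_zero (hγ0 c) (hD2γ c)
  have hDh1 : D₁ h = H₁ * h := by rw [hH₁def, div_mul_cancel₀ _ hh0]
  have hDh2 : D₂ h = H₂ * h := by rw [hH₂def, div_mul_cancel₀ _ hh0]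
  have hφF : ∀ c, φ c = F c * D₁ (φ c) := fun c => by rw [hF, div_mul_cancel₀ _ (hD1φ c)]
  have hγG : ∀ c, γ c = G c * D₂ (γ c) := fun c => by rw [hG, div_mul_cancel₀ _ (hD2γ c)]
  -- (**)
  have hstar : ∀ c, F c * H₁ + G c * H₂ = 1 := by
    intro c
    have jac := jacobian (p := p) D₁ D₂ (hh c)
    have hφ4 : φ c ^ 2 * φ c ^ 2 ≠ 0 := mul_ne_zero (pow_ne_zero _ (hφ0 c)) (pow_ne_zero _ (hφ0 c))
    rw [D_div D₁ _ _ (hφ0 c), D_div D₂ _ _ (hφ0 c), D_div D₂ _ _ (hφ0 c),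
      D_div D₁ _ _ (hφ0 c), hD1γ c, hD2φ c, div_mul_div_comm, div_mul_div_comm,
      div_left_inj' hφ4, hDh1, hDh2] at jac
    -- jac : (0 * φ - γ * D₁φ) * (H₂ h * φ - h * 0) = (D₂γ * φ - γ * 0) * (H₁ h * φ - h * D₁φ)
    have hc1 : φ c * h * D₁ (φ c) * D₂ (γ c) ≠ 0 :=
      mul_ne_zero (mul_ne_zero (mul_ne_zero (hφ0 c) hh0) (hD1φ c)) (hD2γ c)
    apply mul_left_cancel₀ hc1
    have e1 := hφF c
    have e2 := hγG c
    linear_combination (-1 : L) * jac - (φ c * h * D₂ (γ c) * H₁) * e1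
      - (φ c * h * D₁ (φ c) * H₂) * e2
  -- injectivity of F and G
  have hFinj : ∀ c c', F c = F c' → c = c' := by
    intro c c' hcc
    refine hφinj c c' (mem_pPow_of_D₁_eq_zero h11 ((PA p x).div_mem (hφE c) (hφE c')) ?_)
    rw [D_div D₁ _ _ (hφ0 c'), div_eq_zero_iff]; left
    have e1 := hφF c
    have e2 := hφF c'
    linear_combination (D₁ (φ c)) * e2 - (D₁ (φ c')) * e1 - (D₁ (φ c) * D₁ (φ c')) * hcc
  have hGinj : ∀ c c', G c = G c' → c = c' := by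
    intro c c' hcc
    refine hγinj c c' (mem_pPow_of_D₁_eq_zero (D₁ := D₂) h22
      ((PA p y).div_mem (hγE c) (hγE c')) ?_)
    rw [D_div D₂ _ _ (hγ0 c'), div_eq_zero_iff]; left
    have e1 := hγG c
    have e2 := hγG c'
    linear_combination (D₂ (γ c)) * e2 - (D₂ (γ c')) * e1 - (D₂ (γ c) * D₂ (γ c')) * hcc
  -- a second index
  obtain ⟨e, heo⟩ := exists_ne o
  have hH₁ : H₁ ≠ 0 := by
    intro h0
    have h1 := hstar e
    have h2 := hstar o
    rw [h0, mul_zero, zero_add] at h1 h2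
    have hH2 : H₂ ≠ 0 := by rintro h3; rw [h3, mul_zero] at h1; exact zero_ne_one h1
    exact heo (hGinj e o (mul_right_cancel₀ hH2 (h1.trans h2.symm)))
  have hH₂ : H₂ ≠ 0 := by
    intro h0
    have h1 := hstar e
    have h2 := hstar o
    rw [h0, mul_zero, add_zero] at h1 h2
    exact heo (hFinj e o (mul_right_cancel₀ hH₁ (h1.trans h2.symm)))
  obtain ⟨A, hAdef⟩ : ∃ A : L, A = F e - F o := ⟨_, rfl⟩
  obtain ⟨B, hBdef⟩ : ∃ B : L, B = G o - G e := ⟨_, rfl⟩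
  have hA0 : A ≠ 0 := fun h0 => heo (hFinj e o (sub_eq_zero.1 (hAdef ▸ h0)))
  have hB0 : B ≠ 0 := fun h0 => heo ((hGinj o e (sub_eq_zero.1 (hBdef ▸ h0))).symm)
  have hAE : A ∈ PA p x := by rw [hAdef]; exact (PA p x).sub_mem (hFE e) (hFE o)
  have hBE : B ∈ PA p y := by rw [hBdef]; exact (PA p y).sub_mem (hGE o) (hGE e)
  have hAB : A * H₁ = B * H₂ := by
    have h1 := hstar e
    have h2 := hstar o
    rw [hAdef, hBdef]
    linear_combination h1 - h2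
  have hXY : ∀ c, (F c - F o) * H₁ = (G o - G c) * H₂ := by
    intro c
    have h1 := hstar c
    have h2 := hstar o
    linear_combination h1 - h2
  obtain ⟨lam, hlam⟩ : ∃ lam : ι → L, ∀ c, lam c = (F c - F o) / A := ⟨_, fun _ => rfl⟩
  have hlam' : ∀ c, lam c = (G o - G c) / B := by
    intro c
    rw [hlam, div_eq_div_iff hA0 hB0]
    refine mul_right_cancel₀ hH₂ ?_
    linear_combination (-(F c - F o)) * hAB + A * hXY c
  have hlamP : ∀ c, lam c ∈ pPow p := by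
    intro c
    refine mem_pPow_of_mem_of_mem h11 h12 ?_ ?_
    · rw [hlam]; exact (PA p x).div_mem ((PA p x).sub_mem (hFE c) (hFE o)) hAE
    · rw [hlam' c]; exact (PA p y).div_mem ((PA p y).sub_mem (hGE o) (hGE c)) hBE
  have hlamo : lam o = 0 := by rw [hlam, sub_self, zero_div]
  have hlaminj : Function.Injective lam := by
    intro c c' hcc
    rw [hlam, hlam, div_left_inj' hA0] at hcc
    exact hFinj c c' (by linear_combination hcc)
  obtain ⟨P, hPdef⟩ : ∃ P : L, P = F o / A := ⟨_, rfl⟩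
  obtain ⟨Q, hQdef⟩ : ∃ Q : L, Q = G o / B := ⟨_, rfl⟩
  have hPE : P ∈ PA p x := by rw [hPdef]; exact (PA p x).div_mem (hFE o) hAE
  have hQE : Q ∈ PA p y := by rw [hQdef]; exact (PA p y).div_mem (hGE o) hBE
  have hFc : ∀ c, F c = A * (P + lam c) := by
    intro c
    rw [hPdef, hlam, ← add_div, mul_div_cancel₀ _ hA0]; ring
  have hGc : ∀ c, G c = B * (Q - lam c) := by
    intro c
    rw [hlam' c, hQdef, ← sub_div, mul_div_cancel₀ _ hB0]; ring
  have hPlam : ∀ c, P + lam c ≠ 0 := fun c h0 => hF0 c (by rw [hFc c, h0, mul_zero])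
  have hQlam : ∀ c, Q - lam c ≠ 0 := fun c h0 => hG0 c (by rw [hGc c, h0, mul_zero])
  have hH1 : A * H₁ * (P + Q) = 1 := by
    have h2 := hstar o
    rw [hFc o, hGc o, hlamo] at h2
    linear_combination h2 + Q * hAB
  have hH2 : B * H₂ * (P + Q) = 1 := by rw [← hAB]; exact hH1
  have hPQ : P + Q ≠ 0 := fun h0 => by rw [h0, mul_zero] at hH1; exact zero_ne_one hH1
  -- h ∈ L^p(x,y)
  have hhE : h ∈ PA2 p x y := by
    have h1 : h / φ o ∈ PA2 p x y := by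
      refine PA_le_of_mem p ((pPow_le_PA p x).trans (PA_le_PA2 p x y)) ?_ (hh o)
      rw [hφo, hγo]
      exact (PA2 p x y).div_mem (snd_mem_PA2 p x y) (PA_le_PA2 p x y (self_mem_PA p x))
    have h2 : h = h / φ o * φ o := (div_mul_cancel₀ _ (hφ0 o)).symm
    rw [h2]
    exact (PA2 p x y).mul_mem h1 (by rw [hφo]; exact PA_le_PA2 p x y (self_mem_PA p x))
  -- integrability
  have hint : D₂ H₁ = D₁ H₂ := by
    rw [hH₁def, hH₂def, D_div D₂ _ _ hh0, D_div D₁ _ _ hh0,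
      comm_of_mem_PA2 h11 h12 h21 h22 hhE]
    ring
  have hD2A : D₂ A = 0 := D₂_eq_zero_of_mem_PA h21 hAE
  have hD2P : D₂ P = 0 := D₂_eq_zero_of_mem_PA h21 hPE
  have hD1B : D₁ B = 0 := D₂_eq_zero_of_mem_PA (D₂ := D₁) h12 hBE
  have hD1Q : D₁ Q = 0 := D₂_eq_zero_of_mem_PA (D₂ := D₁) h12 hQE
  have hd1 : A * (P + Q) * D₂ H₁ + A * H₁ * D₂ Q = 0 := by
    have := congrArg D₂ hH1
    rw [D_mul, D_mul, map_add, hD2A, hD2P, Derivation.map_one_eq_zero] at this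
    linear_combination this
  have hd2 : B * (P + Q) * D₁ H₂ + B * H₂ * D₁ P = 0 := by
    have := congrArg D₁ hH2
    rw [D_mul, D_mul, map_add, hD1B, hD1Q, Derivation.map_one_eq_zero] at this
    linear_combination this
  obtain ⟨kap, hkapdef⟩ : ∃ kap : L, kap = A * D₁ P := ⟨_, rfl⟩
  have hkap : B * D₂ Q = kap := by
    rw [hkapdef]
    have e2 : D₂ H₁ = -(H₁ * D₂ Q) / (P + Q) := by
      rw [eq_div_iff hPQ]
      apply mul_left_cancel₀ hA0
      linear_combination hd1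
    have e3 : D₁ H₂ = -(H₂ * D₁ P) / (P + Q) := by
      rw [eq_div_iff hPQ]
      apply mul_left_cancel₀ hB0
      linear_combination hd2
    have e1 : H₁ * D₂ Q = H₂ * D₁ P := by
      rw [e2, e3, div_left_inj' hPQ] at hint
      linear_combination -hint
    linear_combination (A * B * (P + Q)) * e1 - (B * D₂ Q) * hH1 + (A * D₁ P) * hH2
  have hkapP : kap ∈ pPow p := by
    refine mem_pPow_of_mem_of_mem h11 h12 ?_ ?_
    · rw [hkapdef]; exact (PA p x).mul_mem hAE (D₁_mem_PA h11 hPE)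
    · rw [← hkap]; exact (PA p y).mul_mem hBE (D₁_mem_PA (D₁ := D₂) h22 hQE)
  have hFo : x = A * P := by
    have h1 := hFc o
    rw [hF, hφo, h11, div_one, hlamo, add_zero] at h1
    exact h1
  have hP0 : P ≠ 0 := fun h0 => hF0 o (by rw [hFc o, hlamo, add_zero, h0, mul_zero])
  -- kap ≠ 0
  have hkap0 : kap ≠ 0 := by
    intro hk0
    have hD1P : D₁ P = 0 := by
      rw [hkapdef] at hk0
      exact (mul_eq_zero.1 hk0).resolve_left hA0
    have hPp : P ∈ pPow p := mem_pPow_of_D₁_eq_zero h11 hPE hD1P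
    have key : ∀ c, ∃ m, m < p ∧ P / (P + lam c) = (m : L) := by
      intro c
      have hk : P / (P + lam c) ∈ pPow p :=
        (pPow p).div_mem hPp ((pPow p).add_mem hPp (hlamP c))
      have heq : D₁ (φ c) * x = P / (P + lam c) * D₁ x * φ c := by
        have h1 := hφF c
        rw [hFc c] at h1
        rw [h11, mul_one, hFo, div_mul_eq_mul_div, eq_div_iff (hPlam c)]
        linear_combination (-P) * h1
      obtain ⟨m, hm, hkm, -⟩ := eig (p := p) D₁ (pPow p) (pow_mem_pPow p)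
        (fun _ he => D_of_mem_pPow D₁ he) (by rw [h11]; exact one_ne_zero) (hφE c) (hφ0 c) hk heq
      exact ⟨m, hm, hkm⟩
    choose mc hmc1 hmc2 using key
    have hinj : Function.Injective (fun c => (⟨mc c, hmc1 c⟩ : Fin p)) := by
      intro c c' hcc
      have h1 : mc c = mc c' := congrArg Fin.val hcc
      have h2 : P / (P + lam c) = P / (P + lam c') := by rw [hmc2 c, hmc2 c', h1]
      rw [div_eq_div_iff (hPlam c) (hPlam c')] at h2
      have h3 : P * (lam c' - lam c) = 0 := by linear_combination h2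
      have h4 := (mul_eq_zero.1 h3).resolve_left hP0
      exact hlaminj (by linear_combination -h4)
    exact not_injective_infinite_finite _ hinj
  have hD1P : D₁ P = kap / A := eq_div_of_mul_eq hA0 (by rw [hkapdef]; ring)
  have hD2Q : D₂ Q = kap / B := eq_div_of_mul_eq hB0 (by rw [← hkap]; ring)
  have hD1P0 : D₁ P ≠ 0 := by rw [hD1P]; exact div_ne_zero hkap0 hA0
  have hD2Q0 : D₂ Q ≠ 0 := by rw [hD2Q]; exact div_ne_zero hkap0 hB0
  have hkinv : kap⁻¹ ∈ pPow p := (pPow p).inv_mem hkapP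
  have hkA : kap⁻¹ * (kap / A) = A⁻¹ := by
    rw [← mul_div_assoc, inv_mul_cancel₀ hkap0, one_div]
  have hkB : kap⁻¹ * (kap / B) = B⁻¹ := by
    rw [← mul_div_assoc, inv_mul_cancel₀ hkap0, one_div]
  -- the exponent, from φ
  have keyφ : ∀ c, ∃ m, m < p ∧ kap⁻¹ = (m : L) ∧ φ c / (P + lam c) ^ m ∈ pPow p := by
    intro c
    have hD1t : D₁ (P + lam c) = D₁ P := by
      rw [map_add, D_of_mem_pPow D₁ (hlamP c), add_zero]
    have htE : P + lam c ∈ PA p x := (PA p x).add_mem hPE (pPow_le_PA p x (hlamP c))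
    have hle := adjoinP_le_adjoinP (p := p) D₁ (pPow p) (pow_mem_pPow p)
      (fun _ he => D_of_mem_pPow D₁ he) htE (by rw [hD1t]; exact hD1P0)
    have heq : D₁ (φ c) * (P + lam c) = kap⁻¹ * D₁ (P + lam c) * φ c := by
      have h1 := hφF c
      rw [hFc c] at h1
      rw [hD1t, hD1P, hkA, inv_mul_eq_div, eq_div_iff hA0]
      linear_combination (-1 : L) * h1
    exact eig (p := p) D₁ (pPow p) (pow_mem_pPow p)
      (fun _ he => D_of_mem_pPow D₁ he) (by rw [hD1t]; exact hD1P0) (hle (hφE c)) (hφ0 c)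
      hkinv heq
  have keyγ : ∀ c, ∃ m, m < p ∧ kap⁻¹ = (m : L) ∧ γ c / (Q - lam c) ^ m ∈ pPow p := by
    intro c
    have hD2t : D₂ (Q - lam c) = D₂ Q := by
      rw [map_sub, D_of_mem_pPow D₂ (hlamP c), sub_zero]
    have htE : Q - lam c ∈ PA p y := (PA p y).sub_mem hQE (pPow_le_PA p y (hlamP c))
    have hle := adjoinP_le_adjoinP (p := p) D₂ (pPow p) (pow_mem_pPow p)
      (fun _ he => D_of_mem_pPow D₂ he) htE (by rw [hD2t]; exact hD2Q0)
    have heq : D₂ (γ c) * (Q - lam c) = kap⁻¹ * D₂ (Q - lam c) * γ c := by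
      have h1 := hγG c
      rw [hGc c] at h1
      rw [hD2t, hD2Q, hkB, inv_mul_eq_div, eq_div_iff hB0]
      linear_combination (-1 : L) * h1
    exact eig (p := p) D₂ (pPow p) (pow_mem_pPow p)
      (fun _ he => D_of_mem_pPow D₂ he) (by rw [hD2t]; exact hD2Q0) (hle (hγE c)) (hγ0 c)
      hkinv heq
  obtain ⟨m, hmp, hkm, -⟩ := keyφ o
  have hm0 : 0 < m := by
    rcases Nat.eq_zero_or_pos m with h0 | h0
    · rw [h0, Nat.cast_zero] at hkm
      exact absurd (inv_eq_zero.1 hkm) hkap0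
    · exact h0
  have huniq : ∀ m', m' < p → kap⁻¹ = (m' : L) → m' = m := fun m' hm' hk =>
    CharP.natCast_injOn_Iio L p hm' hmp (hk.symm.trans hkm)
  refine ⟨m, hm0, hmp, P, Q, hPE, ?_, hQE, ?_, lam, hlamP, hlamo, hlaminj, ?_, ?_, hPQ, ?_⟩
  · intro hPp; exact hD1P0 (D_of_mem_pPow D₁ hPp)
  · intro hQp; exact hD2Q0 (D_of_mem_pPow D₂ hQp)
  · intro c
    obtain ⟨m', hm', hk', hmem⟩ := keyφ c
    rw [huniq m' hm' hk'] at hmem
    exact ⟨hPlam c, hmem⟩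
  · intro c
    obtain ⟨m', hm', hk', hmem⟩ := keyγ c
    rw [huniq m' hm' hk'] at hmem
    exact ⟨hQlam c, hmem⟩
  · -- h / (P+Q)^m
    obtain ⟨m', rfl⟩ : ∃ m', m = m' + 1 := ⟨m - 1, (Nat.succ_pred_eq_of_pos hm0).symm⟩
    have hPQE : P + Q ∈ PA2 p x y :=
      (PA2 p x y).add_mem (PA_le_PA2 p x y hPE) (PA_le_PA2' p x y hQE)
    have hz : h / (P + Q) ^ (m' + 1) ∈ PA2 p x y :=
      (PA2 p x y).div_mem hhE ((PA2 p x y).pow_mem hPQE _)
    have hpow0 : (P + Q) ^ (m' + 1) ≠ 0 := pow_ne_zero _ hPQ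
    have hmk : ((m' + 1 : ℕ) : L) * kap = 1 := by rw [← hkm]; exact inv_mul_cancel₀ hkap0
    have hAD : A * D₁ P = kap := hkapdef.symm
    refine mem_pPow_of_mem_PA2 h11 h21 h22 hz ?_ ?_
    · rw [D_div D₁ _ _ hpow0, D_pow, map_add, hD1Q, add_zero, hDh1, div_eq_zero_iff]
      left
      simp only [Nat.add_sub_cancel]
      apply mul_left_cancel₀ hA0
      linear_combination (h * (P + Q) ^ m') * hH1
        - (h * (P + Q) ^ m' * ((m' + 1 : ℕ) : L)) * hAD - (h * (P + Q) ^ m') * hmk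
    · rw [D_div D₂ _ _ hpow0, D_pow, map_add, hD2P, zero_add, hDh2, div_eq_zero_iff]
      left
      simp only [Nat.add_sub_cancel]
      apply mul_left_cancel₀ hB0
      linear_combination (h * (P + Q) ^ m') * hH2
        - (h * (P + Q) ^ m' * ((m' + 1 : ℕ) : L)) * hkap - (h * (P + Q) ^ m') * hmk

end main

end Crest.Agent.Helper54.S0010
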