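import Mathlib

/-!
# S0010 (row 9), work package WP-LL, part 1: fields of characteristic `p` and derivations

Elementary facts used by the Line Lemma:
* `pPow p : Subfield L` — the subfield `L^p`;
* `adjoinP p E hE t : Subfield L` — for a subfield `E ⊇ L^p`, the subfield
  `E(t) = {∑_{j<p} b_j t^j : b_j ∈ E}`;
* derivations vanish on `L^p`; the "basis lemma" `eq_zero_of_sum_eq_zero`
  (`1, t, …, t^{p-1}` are independent over the constants of a derivation `D` with `D t ≠ 0`);
* `eig` — the eigenvector lemma (Eig);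
* `adjoinP_le_adjoinP` — `E(x) ⊆ E(t)` for `t ∈ E(x)` with `D t ≠ 0`.
-/

set_option autoImplicit false
set_option linter.unusedSectionVars false
set_option linter.unnecessarySimpa false

namespace Crest.Agent.Helper54.S0010

open Finset

variable {L : Type*} [Field L] (p : ℕ) [hp : Fact p.Prime] [CharP L p]

/-- The subfield `L^p` of `p`-th powers. -/
def pPow : Subfield L := (frobenius L p).fieldRange

theorem mem_pPow {w : L} : w ∈ pPow (L := L) p ↔ ∃ b : L, b ^ p = w := by
  simp [pPow, RingHom.mem_fieldRange, frobenius_def]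

theorem pow_mem_pPow (b : L) : b ^ p ∈ pPow (L := L) p := (mem_pPow p).2 ⟨b, rfl⟩

section adjoin

variable (E : Subfield L) (hE : ∀ a : L, a ^ p ∈ E) (t : L)

/-- The underlying set of `E(t)`. -/
def adjSet : Set L := {w | ∃ b : ℕ → L, (∀ j, b j ∈ E) ∧ w = ∑ j ∈ range p, b j * t ^ j}

variable {p E t}

theorem adjSet_zero : (0 : L) ∈ adjSet p E t :=
  ⟨fun _ => 0, fun _ => E.zero_mem, by simp⟩

theorem adjSet_add {w w' : L} (hw : w ∈ adjSet p E t) (hw' : w' ∈ adjSet p E t) :
    w + w' ∈ adjSet p E t := by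
  obtain ⟨b, hb, rfl⟩ := hw
  obtain ⟨b', hb', rfl⟩ := hw'
  refine ⟨fun j => b j + b' j, fun j => E.add_mem (hb j) (hb' j), ?_⟩
  rw [← sum_add_distrib]
  exact sum_congr rfl (fun j _ => by ring)

theorem adjSet_smul {e w : L} (he : e ∈ E) (hw : w ∈ adjSet p E t) : e * w ∈ adjSet p E t := by
  obtain ⟨b, hb, rfl⟩ := hw
  refine ⟨fun j => e * b j, fun j => E.mul_mem he (hb j), ?_⟩
  rw [mul_sum]
  exact sum_congr rfl (fun j _ => by ring)

theorem adjSet_sum {ι : Type*} (s : Finset ι) (f : ι → L) (h : ∀ i ∈ s, f i ∈ adjSet p E t) :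
    ∑ i ∈ s, f i ∈ adjSet p E t := by
  classical
  induction s using Finset.induction_on with
  | empty => simpa using adjSet_zero
  | insert a s ha ih =>
      rw [sum_insert ha]
      exact adjSet_add (h a (mem_insert_self a s))
        (ih (fun i hi => h i (mem_insert_of_mem hi)))

include hE hp in
theorem adjSet_mul_t {w : L} (hw : w ∈ adjSet p E t) : t * w ∈ adjSet p E t := by
  obtain ⟨b, hb, rfl⟩ := hw
  obtain ⟨q, hq⟩ : ∃ q, p = q + 1 := ⟨p - 1, (Nat.succ_pred_eq_of_pos hp.out.pos).symm⟩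
  refine ⟨fun j => Nat.casesOn j (b q * t ^ p) (fun j => b j), ?_, ?_⟩
  · intro j
    cases j with
    | zero => exact E.mul_mem (hb q) (hE t)
    | succ j => exact hb j
  · rw [mul_sum]
    conv_rhs => rw [hq, sum_range_succ']
    conv_lhs => rw [hq, sum_range_succ]
    simp only [pow_zero, mul_one]
    congr 1
    · exact sum_congr rfl (fun j _ => by ring)
    · show t * (b q * t ^ q) = b q * t ^ (q + 1)
      ring

include hp in
theorem adjSet_of_mem {e : L} (he : e ∈ E) : e ∈ adjSet p E t := by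
  refine ⟨fun j => if j = 0 then e else 0, fun j => ?_, ?_⟩
  · by_cases h : j = 0
    · simpa [h] using he
    · simpa [h] using E.zero_mem
  · rw [sum_eq_single 0]
    · simp
    · intro j _ hj; simp [hj]
    · intro h; exact absurd (mem_range.2 hp.out.pos) h

include hE hp in
theorem adjSet_mul_pow {w : L} (hw : w ∈ adjSet p E t) (n : ℕ) : t ^ n * w ∈ adjSet p E t := by
  induction n with
  | zero => simpa using hw
  | succ n ih =>
      have := adjSet_mul_t (p := p) hE ih
      rwa [← mul_assoc, ← pow_succ'] at this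

include hE hp in
theorem adjSet_mul {w w' : L} (hw : w ∈ adjSet p E t) (hw' : w' ∈ adjSet p E t) :
    w * w' ∈ adjSet p E t := by
  obtain ⟨b, hb, rfl⟩ := hw
  rw [sum_mul]
  refine adjSet_sum _ _ (fun j _ => ?_)
  rw [mul_assoc]
  exact adjSet_smul (hb j) (adjSet_mul_pow hE hw' j)

include hE hp in
theorem adjSet_pow {w : L} (hw : w ∈ adjSet p E t) (n : ℕ) : w ^ n ∈ adjSet p E t := by
  induction n with
  | zero => simpa using adjSet_of_mem (p := p) (t := t) E.one_mem
  | succ n ih => rw [pow_succ]; exact adjSet_mul hE ih hw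

include hE hp in
theorem adjSet_inv {w : L} (hw : w ∈ adjSet p E t) : w⁻¹ ∈ adjSet p E t := by
  rcases eq_or_ne w 0 with rfl | h0
  · simpa using adjSet_zero (p := p) (E := E) (t := t)
  · have h1 : w⁻¹ = (w⁻¹) ^ p * w ^ (p - 1) := by
      have hpp : p = (p - 1) + 1 := (Nat.succ_pred_eq_of_pos hp.out.pos).symm
      have : (w⁻¹) ^ p * w ^ (p - 1) * w = 1 := by
        rw [mul_assoc, ← pow_succ, ← hpp, ← mul_pow, inv_mul_cancel₀ h0, one_pow]
      exact (eq_inv_of_mul_eq_one_left this).symm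
    rw [h1]
    exact adjSet_smul (hE _) (adjSet_pow hE hw _)

variable (p E t)

/-- For a subfield `E ⊇ L^p` and `t : L`: the subfield `E(t) = {∑_{j<p} b_j t^j : b_j ∈ E}`. -/
def adjoinP : Subfield L where
  carrier := adjSet p E t
  mul_mem' := fun ha hb => adjSet_mul hE ha hb
  one_mem' := adjSet_of_mem E.one_mem
  add_mem' := fun ha hb => adjSet_add ha hb
  zero_mem' := adjSet_zero
  neg_mem' := fun {x} hx => by
    have := adjSet_smul (E.neg_mem E.one_mem) hx
    simpa using this
  inv_mem' := fun _ hx => adjSet_inv hE hx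

variable {p E t}

theorem mem_adjoinP {w : L} :
    w ∈ adjoinP p E hE t ↔ ∃ b : ℕ → L, (∀ j, b j ∈ E) ∧ w = ∑ j ∈ range p, b j * t ^ j :=
  Iff.rfl

theorem le_adjoinP : E ≤ adjoinP p E hE t := fun _ he => adjSet_of_mem he

theorem self_mem_adjoinP : t ∈ adjoinP p E hE t := by
  have h1 : (1 : L) ∈ adjSet p E t := adjSet_of_mem E.one_mem
  have h2 := adjSet_mul_t (p := p) hE h1
  rw [mul_one] at h2
  exact h2

theorem adjoinP_le {S : Subfield L} (hES : E ≤ S) (ht : t ∈ S) : adjoinP p E hE t ≤ S := by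
  rintro w ⟨b, hb, rfl⟩
  exact S.sum_mem (fun j _ => S.mul_mem (hES (hb j)) (S.pow_mem ht j))

end adjoin

/-! ### Derivations -/

section deriv

variable {p}
variable (D : Derivation ℤ L L)

theorem D_mul (a b : L) : D (a * b) = a * D b + b * D a := by
  simpa [smul_eq_mul] using D.leibniz a b

theorem D_pow (a : L) (n : ℕ) : D (a ^ n) = (n : L) * a ^ (n - 1) * D a := by
  have := D.leibniz_pow a n
  rw [this, nsmul_eq_mul, smul_eq_mul, mul_assoc]

include hp in
theorem D_ppow (a : L) : D (a ^ p) = 0 := by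
  rw [D_pow, CharP.cast_eq_zero L p, zero_mul, zero_mul]

include hp in
theorem D_of_mem_pPow {w : L} (hw : w ∈ pPow (L := L) p) : D w = 0 := by
  obtain ⟨b, rfl⟩ := (mem_pPow p).1 hw
  exact D_ppow D b

theorem D_div (a b : L) (hb : b ≠ 0) : D (a / b) = (D a * b - a * D b) / b ^ 2 := by
  rw [D.leibniz_div]
  simp only [smul_eq_mul]
  field_simp

theorem D_inv (b : L) (hb : b ≠ 0) : D (b⁻¹) = - D b / b ^ 2 := by
  rw [D.leibniz_inv]
  simp only [smul_eq_mul]
  field_simp

/-- Derivative of `∑_{j<n+1} b_j t^j` with constant coefficients. -/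
theorem D_sum (t : L) (b : ℕ → L) (hb : ∀ j, D (b j) = 0) (n : ℕ) :
    D (∑ j ∈ range (n + 1), b j * t ^ j)
      = (∑ j ∈ range n, (((j + 1 : ℕ) : L) * b (j + 1)) * t ^ j) * D t := by
  rw [map_sum, sum_range_succ', sum_mul]
  have h0 : D (b 0 * t ^ 0) = 0 := by simp [hb 0]
  rw [h0, add_zero]
  refine sum_congr rfl (fun j _ => ?_)
  rw [D_mul, D_pow, hb (j + 1)]
  simp only [Nat.add_sub_cancel, mul_zero, add_zero]
  ring

/-- `D w * t` for `w = ∑_{j<n} b_j t^j` with constant coefficients. -/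
theorem D_sum_mul (t : L) (b : ℕ → L) (hb : ∀ j, D (b j) = 0) (n : ℕ) :
    D (∑ j ∈ range n, b j * t ^ j) * t
      = (∑ j ∈ range n, ((j : L) * b j) * t ^ j) * D t := by
  rw [map_sum, sum_mul, sum_mul]
  refine sum_congr rfl (fun j _ => ?_)
  rw [D_mul, D_pow, hb j]
  cases j with
  | zero => simp
  | succ j =>
      simp only [Nat.add_sub_cancel, mul_zero, add_zero]
      rw [pow_succ]; ring

include hp in
/-- Basis lemma: `1, t, …, t^{n-1}` (`n ≤ p`) are independent over the constants of a derivation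
`D` with `D t ≠ 0`. -/
theorem eq_zero_of_sum_eq_zero (t : L) (hDt : D t ≠ 0) :
    ∀ n, n ≤ p → ∀ b : ℕ → L, (∀ j, D (b j) = 0) →
      ∑ j ∈ range n, b j * t ^ j = 0 → ∀ j, j < n → b j = 0 := by
  intro n
  induction n with
  | zero => intro _ b _ _ j hj; exact absurd hj (Nat.not_lt_zero j)
  | succ n ih =>
      intro hn b hb hsum
      have h1 : (∑ j ∈ range n, (((j + 1 : ℕ) : L) * b (j + 1)) * t ^ j) * D t = 0 := by
        rw [← D_sum D t b hb n, hsum, map_zero]
      have h2 : ∑ j ∈ range n, (((j + 1 : ℕ) : L) * b (j + 1)) * t ^ j = 0 := by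
        rcases mul_eq_zero.1 h1 with h | h
        · exact h
        · exact absurd h hDt
      have h3 : ∀ j, j < n → b (j + 1) = 0 := by
        intro j hj
        have h4 := ih (Nat.le_of_succ_le hn) (fun j => ((j + 1 : ℕ) : L) * b (j + 1))
          (fun j => by rw [D_mul, hb (j + 1), D.map_natCast]; simp) h2 j hj
        have h5 : ((j + 1 : ℕ) : L) ≠ 0 := by
          rw [Ne, CharP.cast_eq_zero_iff L p]
          exact Nat.not_dvd_of_pos_of_lt (Nat.succ_pos j) (by omega)
        exact (mul_eq_zero.1 h4).resolve_left h5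
      have h0 : b 0 = 0 := by
        rw [sum_range_succ'] at hsum
        have : ∑ k ∈ range n, b (k + 1) * t ^ (k + 1) = 0 :=
          sum_eq_zero (fun k hk => by rw [h3 k (mem_range.1 hk), zero_mul])
        rw [this, zero_add] at hsum
        simpa using hsum
      intro j hj
      cases j with
      | zero => exact h0
      | succ j => exact h3 j (Nat.lt_of_succ_lt_succ hj)

variable (E : Subfield L) (hE : ∀ a : L, a ^ p ∈ E)

include hp in
/-- A derivation vanishing on `E` and at `t` vanishes on `E(t)`. -/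
theorem D_eq_zero_of_mem_adjoinP (hD : ∀ e ∈ E, D e = 0) {t : L} (ht : D t = 0) {w : L}
    (hw : w ∈ adjoinP p E hE t) : D w = 0 := by
  obtain ⟨b, hb, rfl⟩ := hw
  rw [map_sum]
  refine sum_eq_zero (fun j _ => ?_)
  rw [D_mul, D_pow, ht, hD _ (hb j)]
  simp

include hp in
/-- `D` maps `E(t)` into itself when `D t ∈ E(t)` and `D = 0` on `E`. -/
theorem D_mem_adjoinP (hD : ∀ e ∈ E, D e = 0) {t : L} (ht : D t ∈ adjoinP p E hE t) {w : L}
    (hw : w ∈ adjoinP p E hE t) : D w ∈ adjoinP p E hE t := by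
  obtain ⟨b, hb, rfl⟩ := hw
  rw [map_sum]
  refine (adjoinP p E hE t).sum_mem (fun j _ => ?_)
  rw [D_mul, D_pow, hD _ (hb j), mul_zero, add_zero]
  refine (adjoinP p E hE t).mul_mem (le_adjoinP hE (hb j)) ?_
  refine (adjoinP p E hE t).mul_mem ((adjoinP p E hE t).mul_mem ?_ ?_) ht
  · exact natCast_mem _ j
  · exact (adjoinP p E hE t).pow_mem (self_mem_adjoinP hE) _

include hp in
/-- Elements of `E(t)` killed by `D` (where `D = 0` on `E`, `D t ≠ 0`) lie in `E`. -/
theorem mem_of_D_eq_zero (hD : ∀ e ∈ E, D e = 0) {t : L} (hDt : D t ≠ 0) {w : L}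
    (hw : w ∈ adjoinP p E hE t) (h0 : D w = 0) : w ∈ E := by
  obtain ⟨b, hb, rfl⟩ := hw
  obtain ⟨q, hq⟩ : ∃ q, p = q + 1 := ⟨p - 1, (Nat.succ_pred_eq_of_pos hp.out.pos).symm⟩
  have hb' : ∀ j, D (b j) = 0 := fun j => hD _ (hb j)
  have h1 : (∑ j ∈ range q, (((j + 1 : ℕ) : L) * b (j + 1)) * t ^ j) * D t = 0 := by
    rw [← D_sum D t b hb' q, ← hq, h0]
  have h2 : ∑ j ∈ range q, (((j + 1 : ℕ) : L) * b (j + 1)) * t ^ j = 0 :=
    (mul_eq_zero.1 h1).resolve_right hDt
  have h3 : ∀ j, j < q → b (j + 1) = 0 := by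
    intro j hj
    have h4 := eq_zero_of_sum_eq_zero (p := p) D t hDt q (by omega)
      (fun j => ((j + 1 : ℕ) : L) * b (j + 1))
      (fun j => by rw [D_mul, hb' (j + 1), D.map_natCast]; simp) h2 j hj
    have h5 : ((j + 1 : ℕ) : L) ≠ 0 := by
      rw [Ne, CharP.cast_eq_zero_iff L p]
      exact Nat.not_dvd_of_pos_of_lt (Nat.succ_pos j) (by omega)
    exact (mul_eq_zero.1 h4).resolve_left h5
  have : ∑ j ∈ range p, b j * t ^ j = b 0 := by
    rw [hq, sum_range_succ']
    have : ∑ k ∈ range q, b (k + 1) * t ^ (k + 1) = 0 :=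
      sum_eq_zero (fun k hk => by rw [h3 k (mem_range.1 hk), zero_mul])
    rw [this]; simp
  rw [this]; exact hb 0

include hp in
/-- (Eig): the eigenvector lemma. -/
theorem eig (hD : ∀ e ∈ E, D e = 0) {t : L} (hDt : D t ≠ 0) {w : L}
    (hw : w ∈ adjoinP p E hE t) (hw0 : w ≠ 0) {kap : L} (hk : kap ∈ E)
    (h : D w * t = kap * D t * w) :
    ∃ m, m < p ∧ kap = (m : L) ∧ w / t ^ m ∈ E := by
  obtain ⟨b, hb, rfl⟩ := hw
  have hb' : ∀ j, D (b j) = 0 := fun j => hD _ (hb j)
  have ht0 : t ≠ 0 := by rintro rfl; exact hDt (map_zero D)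
  rw [D_sum_mul D t b hb' p] at h
  have h1 : (∑ j ∈ range p, (((j : L) - kap) * b j) * t ^ j) * D t = 0 := by
    have : ∑ j ∈ range p, (((j : L) - kap) * b j) * t ^ j
        = ∑ j ∈ range p, ((j : L) * b j) * t ^ j - kap * ∑ j ∈ range p, b j * t ^ j := by
      rw [mul_sum, ← sum_sub_distrib]
      exact sum_congr rfl (fun j _ => by ring)
    rw [this, sub_mul, h]; ring
  have h2 : ∑ j ∈ range p, (((j : L) - kap) * b j) * t ^ j = 0 :=
    (mul_eq_zero.1 h1).resolve_right hDt
  have h3 : ∀ j, j < p → ((j : L) - kap) * b j = 0 :=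
    eq_zero_of_sum_eq_zero (p := p) D t hDt p le_rfl (fun j => ((j : L) - kap) * b j)
      (fun j => by rw [D_mul, hb' j, map_sub, D.map_natCast, hD _ hk]; simp) h2
  obtain ⟨m, hm, hbm⟩ : ∃ m, m < p ∧ b m ≠ 0 := by
    by_contra hcon
    simp only [not_exists, not_and, not_not] at hcon
    exact hw0 (sum_eq_zero (fun j hj => by rw [hcon j (mem_range.1 hj), zero_mul]))
  have hkm : kap = (m : L) := by
    have := (mul_eq_zero.1 (h3 m hm)).resolve_right hbm
    exact (sub_eq_zero.1 this).symm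
  refine ⟨m, hm, hkm, ?_⟩
  have h4 : ∀ j, j < p → j ≠ m → b j = 0 := by
    intro j hj hjm
    have h5 : (j : L) - kap ≠ 0 := by
      rw [hkm, sub_ne_zero]
      intro hc
      exact hjm (CharP.natCast_injOn_Iio L p hj hm hc)
    exact (mul_eq_zero.1 (h3 j hj)).resolve_left h5
  have h6 : ∑ j ∈ range p, b j * t ^ j = b m * t ^ m := by
    rw [sum_eq_single m]
    · intro j hj hjm; rw [h4 j (mem_range.1 hj) hjm, zero_mul]
    · intro hm'; exact absurd (mem_range.2 hm) hm'
  rw [h6, mul_div_assoc, div_self (pow_ne_zero _ ht0), mul_one]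
  exact hb m

include hp in
/-- Conversion: the `E`-span of `1, z, …, z^{p-1}` is `E(z)`. -/
theorem mem_span_iff (z w : L) :
    w ∈ Submodule.span E (Set.range fun i : Fin p => z ^ (i : ℕ)) ↔ w ∈ adjoinP p E hE z := by
  rw [Submodule.mem_span_range_iff_exists_fun]
  constructor
  · rintro ⟨c, rfl⟩
    refine ⟨fun j => if h : j < p then (c ⟨j, h⟩ : L) else 0, fun j => ?_, ?_⟩
    · by_cases h : j < p
      · simp [h]
      · simp [h]
    · rw [← Fin.sum_univ_eq_sum_range
        (fun j => (if h : j < p then (c ⟨j, h⟩ : L) else 0) * z ^ j) p]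
      refine Finset.sum_congr rfl (fun i _ => ?_)
      simp [Subfield.smul_def]
  · rintro ⟨b, hb, rfl⟩
    refine ⟨fun i => ⟨b i, hb i⟩, ?_⟩
    rw [← Fin.sum_univ_eq_sum_range (fun j => b j * z ^ j) p]
    refine Finset.sum_congr rfl (fun i _ => ?_)
    simp [Subfield.smul_def]

include hp in
/-- If `t ∈ E(x)` is not a constant of `D` (where `D = 0` on `E`) then `E(x) ⊆ E(t)`. -/
theorem adjoinP_le_adjoinP (hD : ∀ e ∈ E, D e = 0) {x t : L} (ht : t ∈ adjoinP p E hE x)
    (hDt : D t ≠ 0) : adjoinP p E hE x ≤ adjoinP p E hE t := by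
  classical
  have hu : LinearIndependent E (fun i : Fin p => t ^ (i : ℕ)) := by
    rw [Fintype.linearIndependent_iff]
    intro g hg i
    have h1 : ∑ j ∈ range p, (if h : j < p then (g ⟨j, h⟩ : L) else 0) * t ^ j = 0 := by
      rw [← Fin.sum_univ_eq_sum_range
        (fun j => (if h : j < p then (g ⟨j, h⟩ : L) else 0) * t ^ j) p, ← hg]
      refine Finset.sum_congr rfl (fun i _ => ?_)
      simp [Subfield.smul_def]
    have h2 := eq_zero_of_sum_eq_zero (p := p) D t hDt p le_rfl
      (fun j => if h : j < p then (g ⟨j, h⟩ : L) else 0)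
      (fun j => by
        by_cases h : j < p
        · simp only [h, dite_true]; exact hD _ (g ⟨j, h⟩).2
        · simp [h]) h1 i i.2
    simp only [i.2, dite_true] at h2
    exact Subtype.ext (by simpa using h2)
  have hsub : Submodule.span E (Set.range fun i : Fin p => t ^ (i : ℕ))
      ≤ Submodule.span E (Set.range fun i : Fin p => x ^ (i : ℕ)) := by
    rw [Submodule.span_le]
    rintro _ ⟨i, rfl⟩
    exact (mem_span_iff E hE x _).2 ((adjoinP p E hE x).pow_mem ht _)
  have hfx : Module.finrank E (Submodule.span E (Set.range fun i : Fin p => x ^ (i : ℕ))) ≤ p := by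
    have h := finrank_range_le_card (R := E) (fun i : Fin p => x ^ (i : ℕ))
    rw [Fintype.card_fin] at h
    exact h
  have hft : Module.finrank E (Submodule.span E (Set.range fun i : Fin p => t ^ (i : ℕ))) = p := by
    simpa using finrank_span_eq_card hu
  have : FiniteDimensional E (Submodule.span E (Set.range fun i : Fin p => x ^ (i : ℕ))) :=
    FiniteDimensional.span_of_finite E (Set.finite_range _)
  have heq := Submodule.eq_of_le_of_finrank_le hsub (by omega)
  intro w hw
  rw [← mem_span_iff E hE t w, heq]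
  exact (mem_span_iff E hE x w).2 hw

end deriv

end Crest.Agent.Helper54.S0010
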